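import Mathlib
import Vale.Agent.P195.ARForm

/-!
# P195: condition (AR) characterises projectivity over Artin algebras with radical cube zero

Let `R` be an Artin algebra with `(rad R)^3 = 0`.  In the wording of the problem, with condition
(AR) written as `Ext^i(M, M ⊕ R) = 0`:

1. a finitely generated left `R`-module `M` is projective if and only if `Ext^i(M, M ⊕ R) = 0` for
   every `i ≥ 1`;
2. if `L 0, ..., L (N-1)` are simple modules containing a copy of every simple left `R`-module,
   then vanishing for `1 ≤ i ≤ 2N+2` is already equivalent to projectivity;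
3. such a finite list of simple modules exists;
4. if `R` is local, `Ext^1(M, M) = 0` and `Ext^2(M, R) = 0` are already enough.
-/

universe u v

open CategoryTheory in
theorem Vale.Agent.Results.P195.ConditionAR.result
    {k : Type v} [CommRing k] [IsArtinianRing k]
    {R : Type u} [Ring R] [Algebra k R] [Module.Finite k R]
    (hJ : Ring.jacobson R ^ 3 = ⊥) :
    (∀ (M : ModuleCat.{u} R) [Module.Finite R M],
      Module.Projective R M ↔
        ∀ i : ℕ, 1 ≤ i → Subsingleton (Abelian.Ext M (ModuleCat.of R (M × R)) i)) ∧
    (∀ (N : ℕ) (L : Fin N → ModuleCat.{u} R), (∀ j, IsSimpleModule R (L j)) →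
      (∀ S : ModuleCat.{u} R, IsSimpleModule R S → ∃ j, Nonempty (S ≃ₗ[R] L j)) →
      ∀ (M : ModuleCat.{u} R) [Module.Finite R M],
        Module.Projective R M ↔
          ∀ i : ℕ, 1 ≤ i → i ≤ 2 * N + 2 →
            Subsingleton (Abelian.Ext M (ModuleCat.of R (M × R)) i)) ∧
    (∃ (N : ℕ) (L : Fin N → ModuleCat.{u} R), (∀ j, IsSimpleModule R (L j)) ∧
      ∀ S : ModuleCat.{u} R, IsSimpleModule R S → ∃ j, Nonempty (S ≃ₗ[R] L j)) ∧
    (IsLocalRing R → ∀ (M : ModuleCat.{u} R) [Module.Finite R M],
      Subsingleton (Abelian.Ext M M 1) →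
      Subsingleton (Abelian.Ext M (ModuleCat.of R R) 2) → Module.Projective R M) := by
  have hart : IsArtinianRing R := isArtinian_of_tower k (inferInstance : IsArtinian k R)
  refine ⟨?_, ?_, ?_, ?_⟩
  · intro M _
    constructor
    · intro hP i hi
      exact Vale.Agent.P195.ext_subsingleton_of_projective M _ i hi
    · intro h
      exact Vale.Agent.P195.main_theorem (k := k) hJ M
        (fun n x => Vale.Agent.P195.ext_left_of_prod M (n + 1)
          (fun y => (h (n + 1) (Nat.le_add_left 1 n)).elim y 0) x)
        (fun n x => Vale.Agent.P195.ext_right_of_prod M (n + 1)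
          (fun y => (h (n + 1) (Nat.le_add_left 1 n)).elim y 0) x)
  · intro N L hLs hL M _
    constructor
    · intro hP i hi _
      exact Vale.Agent.P195.ext_subsingleton_of_projective M _ i hi
    · intro h
      exact Vale.Agent.P195.main_theorem_bdd (k := k) hJ L hLs
        (fun S _ _ hS => hL (ModuleCat.of R S) hS) M
        (fun m h1 h2 x => Vale.Agent.P195.ext_left_of_prod M m
          (fun y => (h m h1 (by omega)).elim y 0) x)
        (fun m h1 h2 x => Vale.Agent.P195.ext_right_of_prod M m
          (fun y => (h m h1 h2).elim y 0) x)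
  · obtain ⟨N, L, hLs, hL⟩ := Vale.Agent.P195.exists_simples (R := R)
    exact ⟨N, L, hLs, fun S hS => hL S⟩
  · intro hloc M _ hMM hMR
    exact Vale.Agent.P195.local_main (k := k) hJ M (fun x => hMM.elim x 0) (fun x => hMR.elim x 0)
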