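import Mathlib
import Vale.Agent.P195.Main2

/-!
# P195: a finite-range Auslander-Reiten theorem for Artin algebras with radical cube zero

Let `R` be an Artin algebra with `(rad R)^3 = 0`, and let `L 0, ..., L (N-1)` be simple left
`R`-modules such that every simple left `R`-module is isomorphic to one of them (so `N` may be
taken to be the number of isomorphism classes of simple modules).  If `M` is a finitely generated
left `R`-module with `Ext^i(M, M) = 0` for `1 ≤ i ≤ 2N+1` and `Ext^i(M, R) = 0` for
`1 ≤ i ≤ 2N+2`, then `M` is projective.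
-/

universe u v

theorem Vale.Agent.Results.P195.FiniteRange.result
    {k : Type v} [CommRing k] [IsArtinianRing k]
    {R : Type u} [Ring R] [Algebra k R] [Module.Finite k R]
    (hJ : Ring.jacobson R ^ 3 = ⊥)
    {N : ℕ} (L : Fin N → ModuleCat.{u} R) (hLs : ∀ j, IsSimpleModule R (L j))
    (hL : ∀ S : ModuleCat.{u} R, IsSimpleModule R S → ∃ j, Nonempty (S ≃ₗ[R] L j))
    (M : ModuleCat.{u} R) [Module.Finite R M]
    (hMM : ∀ i : ℕ, 1 ≤ i → i ≤ 2 * N + 1 → Subsingleton (CategoryTheory.Abelian.Ext M M i))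
    (hMR : ∀ i : ℕ, 1 ≤ i → i ≤ 2 * N + 2 →
      Subsingleton (CategoryTheory.Abelian.Ext M (ModuleCat.of R R) i)) :
    Module.Projective R M :=
  Vale.Agent.P195.main_theorem_bdd (k := k) hJ L hLs
    (fun S _ _ hS => hL (ModuleCat.of R S) hS) M
    (fun m h1 h2 x => (hMM m h1 h2).elim x 0)
    (fun m h1 h2 x => (hMR m h1 h2).elim x 0)
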