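import Mathlib
import Vale.Agent.P195.LocalMain

/-!
# P195: local Artin algebras with radical cube zero

Let `R` be a local Artin algebra (not assumed commutative, split, or defined over a field) with
`(rad R)^3 = 0`.  If `M` is a finitely generated left `R`-module with `Ext^1(M, M) = 0` and
`Ext^2(M, R) = 0`, then `M` is projective.
-/

universe u v

theorem Vale.Agent.Results.P195.LocalExtOne.result
    {k : Type v} [CommRing k] [IsArtinianRing k]
    {R : Type u} [Ring R] [Algebra k R] [Module.Finite k R] [IsLocalRing R]
    (hJ : Ring.jacobson R ^ 3 = ⊥)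
    (M : ModuleCat.{u} R) [Module.Finite R M]
    (hMM : Subsingleton (CategoryTheory.Abelian.Ext M M 1))
    (hMR : Subsingleton (CategoryTheory.Abelian.Ext M (ModuleCat.of R R) 2)) :
    Module.Projective R M :=
  Vale.Agent.P195.local_main (k := k) hJ M (fun x => hMM.elim x 0) (fun x => hMR.elim x 0)
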