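import Mathlib
import Vale.Agent.P195.Main

/-!
# P195: the Auslander-Reiten conjecture for Artin algebras with radical cube zero

Let `k` be a commutative Artinian ring and `R` a `k`-algebra which is finitely generated as a
`k`-module (an Artin algebra), with `(rad R)^3 = 0`.  If `M` is a finitely generated left
`R`-module with `Ext^i(M, M) = 0` and `Ext^i(M, R) = 0` for all `i ≥ 1`, then `M` is projective.
-/

universe u v

theorem Vale.Agent.Results.P195.RadCubeZero.result
    {k : Type v} [CommRing k] [IsArtinianRing k]
    {R : Type u} [Ring R] [Algebra k R] [Module.Finite k R]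
    (hJ : Ring.jacobson R ^ 3 = ⊥)
    (M : ModuleCat.{u} R) [Module.Finite R M]
    (hMM : ∀ i : ℕ, 1 ≤ i → Subsingleton (CategoryTheory.Abelian.Ext M M i))
    (hMR : ∀ i : ℕ, 1 ≤ i → Subsingleton (CategoryTheory.Abelian.Ext M (ModuleCat.of R R) i)) :
    Module.Projective R M :=
  Vale.Agent.P195.main_theorem (k := k) hJ M
    (fun n x => (hMM (n + 1) (Nat.le_add_left 1 n)).elim x 0)
    (fun n x => (hMR (n + 1) (Nat.le_add_left 1 n)).elim x 0)
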